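import Vale.Agent.Lib.P197W.Defs

/-!
# P197W: transposition (blueprint Sec 7)
-/

open Equiv Finset

namespace Vale.Agent.Lib.P197W

open Vale.Agent.Lib.P197

variable {n : ℕ} {μ : YoungDiagram}

/-- The transposed filling. -/
def tFill (T : Filling n μ) : Filling n μ.transpose :=
  T.trans
    { toFun := fun c => ⟨c.1.swap, YoungDiagram.mem_transpose.2 (by simpa using c.2)⟩
      invFun := fun c => ⟨c.1.swap, by simpa using YoungDiagram.mem_transpose.1 c.2⟩
      left_inv := fun c => Subtype.ext (Prod.swap_swap _)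
      right_inv := fun c => Subtype.ext (Prod.swap_swap _) }

theorem rowOf_tFill (T : Filling n μ) (x : Fin n) : rowOf (tFill T) x = colOf T x := rfl

theorem colOf_tFill (T : Filling n μ) (x : Fin n) : colOf (tFill T) x = rowOf T x := rfl

theorem rowStab_tFill (T : Filling n μ) : rowStab (tFill T) = colStab T := by
  ext p
  constructor
  · intro h
    exact Finset.mem_filter.2 ⟨mem_univ _, (Finset.mem_filter.1 h).2⟩
  · intro h
    exact Finset.mem_filter.2 ⟨mem_univ _, (Finset.mem_filter.1 h).2⟩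

theorem colStab_tFill (T : Filling n μ) : colStab (tFill T) = rowStab T := by
  ext p
  constructor
  · intro h
    exact Finset.mem_filter.2 ⟨mem_univ _, (Finset.mem_filter.1 h).2⟩
  · intro h
    exact Finset.mem_filter.2 ⟨mem_univ _, (Finset.mem_filter.1 h).2⟩

/-- The coefficient of the reversed symmetrizer, with the sign of the column part in front. -/
def bCoeff (T : Filling n μ) (h : Perm (Fin n)) : ℤ :=
  ∑ p ∈ colStab T, ∑ q ∈ rowStab T, if p * q = h then sgnZ p else 0

theorem sgnZ_mul_sgnZ_self (p : Perm (Fin n)) : sgnZ p * sgnZ p = 1 := by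
  rcases Int.units_eq_one_or (Perm.sign p) with h | h <;> simp [sgnZ, h]

theorem sgnZ_mul (p q : Perm (Fin n)) : sgnZ (p * q) = sgnZ p * sgnZ q := by
  simp [sgnZ, Perm.sign_mul]

theorem sgnZ_conj (g k : Perm (Fin n)) : sgnZ (g⁻¹ * k⁻¹ * g) = sgnZ k := by
  have h1 : sgnZ g⁻¹ = sgnZ g := by simp [sgnZ]
  have h2 : sgnZ k⁻¹ = sgnZ k := by simp [sgnZ]
  rw [sgnZ_mul, sgnZ_mul, h1, h2]
  calc sgnZ g * sgnZ k * sgnZ g = (sgnZ g * sgnZ g) * sgnZ k := by ring
    _ = sgnZ k := by rw [sgnZ_mul_sgnZ_self, one_mul]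

theorem symCoeff_tFill (T : Filling n μ) (h : Perm (Fin n)) :
    symCoeff (tFill T) h = sgnZ h * bCoeff T h := by
  unfold symCoeff bCoeff
  rw [rowStab_tFill, colStab_tFill, Finset.mul_sum]
  refine sum_congr rfl fun p _ => ?_
  rw [Finset.mul_sum]
  refine sum_congr rfl fun q _ => ?_
  by_cases hh : p * q = h
  · subst hh
    rw [if_pos rfl, if_pos rfl, sgnZ_mul]
    calc ((Perm.sign q : ℤˣ) : ℤ) = (sgnZ p * sgnZ p) * sgnZ q := by
          rw [sgnZ_mul_sgnZ_self, one_mul]
      _ = sgnZ p * sgnZ q * sgnZ p := by ring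
  · simp [hh]

theorem sum_bCoeff_conj (T : Filling n μ) (k : Perm (Fin n)) :
    ∑ g : Perm (Fin n), bCoeff T (g⁻¹ * k * g) = ∑ g : Perm (Fin n), symCoeff T (g⁻¹ * k * g) := by
  unfold bCoeff symCoeff
  have hL : ∀ g : Perm (Fin n), (∑ p ∈ rowStab T, ∑ q ∈ colStab T,
      if p * q = g⁻¹ * k * g then ((Perm.sign q : ℤˣ) : ℤ) else 0) =
      ∑ q ∈ colStab T, ∑ p ∈ rowStab T,
        if p * q = g⁻¹ * k * g then sgnZ q else 0 := fun g => Finset.sum_comm
  simp_rw [hL]
  rw [Finset.sum_comm]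
  conv_rhs => rw [Finset.sum_comm]
  refine sum_congr rfl fun p _ => ?_
  rw [Finset.sum_comm]
  conv_rhs => rw [Finset.sum_comm]
  refine sum_congr rfl fun q _ => ?_
  refine Fintype.sum_equiv (Equiv.mulRight p) _ _ fun g => ?_
  simp only [Equiv.coe_mulRight]
  have hiff : p * q = g⁻¹ * k * g ↔ q * p = (g * p)⁻¹ * k * (g * p) := by
    have e : (g * p)⁻¹ * k * (g * p) = p⁻¹ * (g⁻¹ * k * g) * p := by group
    rw [e]
    constructor
    · intro h
      rw [← h]
      group
    · intro h
      have h2 : g⁻¹ * k * g = p * (p⁻¹ * (g⁻¹ * k * g) * p) * p⁻¹ := by group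
      rw [h2, ← h]
      group
  by_cases hc : p * q = g⁻¹ * k * g
  · rw [if_pos hc]
    exact (if_pos (hiff.1 hc)).symm
  · rw [if_neg hc]
    exact (if_neg (fun h => hc (hiff.2 h))).symm

/-- The character of the transpose is the sign times the character. -/
theorem rr_tFill (T : Filling n μ) (π : Perm (Fin n)) :
    rr (tFill T) π = (sgnZ π : ℝ) * rr T π := by
  unfold rr
  have h1 : ∀ g : Perm (Fin n), ((symCoeff (tFill T) (g⁻¹ * π⁻¹ * g) : ℤ) : ℝ) =
      (sgnZ π : ℝ) * ((bCoeff T (g⁻¹ * π⁻¹ * g) : ℤ) : ℝ) := by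
    intro g
    rw [symCoeff_tFill, sgnZ_conj]
    push_cast
    rfl
  simp_rw [h1]
  rw [← Finset.mul_sum]
  have h2 : ∑ g : Perm (Fin n), ((bCoeff T (g⁻¹ * π⁻¹ * g) : ℤ) : ℝ) =
      ∑ g : Perm (Fin n), ((symCoeff T (g⁻¹ * π⁻¹ * g) : ℤ) : ℝ) := by
    have := sum_bCoeff_conj T π⁻¹
    exact_mod_cast this
  rw [h2]
  ring

/-- A filling of the transpose gives a filling of the diagram. -/
def unT {ν : YoungDiagram} (T : Filling n ν.transpose) : Filling n ν :=
  T.trans
    { toFun := fun c => ⟨c.1.swap, by simpa using YoungDiagram.mem_transpose.1 c.2⟩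
      invFun := fun c => ⟨c.1.swap, YoungDiagram.mem_transpose.2 (by simpa using c.2)⟩
      left_inv := fun c => Subtype.ext (Prod.swap_swap _)
      right_inv := fun c => Subtype.ext (Prod.swap_swap _) }

/-- The sign of a permutation without even cycles is one. -/
theorem sgnZ_of_no_even (π : Perm (Fin n)) (h : ¬ ∃ j ∈ π.cycleType, Even j) : sgnZ π = 1 := by
  have key : ∀ s : Multiset ℕ, (∀ j ∈ s, ¬ Even j) → Even (s.sum + Multiset.card s) := by
    intro s
    induction s using Multiset.induction_on with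
    | empty => simp
    | cons a s ih =>
      intro hs
      have ha : Odd a := Nat.not_even_iff_odd.1 (hs a (Multiset.mem_cons_self a s))
      have h' := ih (fun j hj => hs j (Multiset.mem_cons_of_mem hj))
      have e : (a ::ₘ s).sum + Multiset.card (a ::ₘ s) = (a + 1) + (s.sum + Multiset.card s) := by
        simp only [Multiset.sum_cons, Multiset.card_cons]
        ring
      rw [e]
      exact ha.add_one.add h'
  have h1 : Perm.sign π = 1 := by
    rw [Perm.sign_of_cycleType]
    exact (key _ (fun j hj he => h ⟨j, hj, he⟩)).neg_one_pow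
  simp [sgnZ, h1]

/-- The staircase does not see the transpose. -/
theorem posS_transpose (m : ℕ) (ν : YoungDiagram) (h : PosS m ν) : PosS m ν.transpose := by
  intro T₁ T₂ T₃
  have hne := h T₁ T₂ (unT T₃)
  have hrr : rr T₃ = rr (tFill (unT T₃)) := rr_indep _ _
  have hterm : ∀ π : Perm (Fin (m * (m + 1) / 2)),
      rr T₁ π * rr T₂ π * rr T₃ π = rr T₁ π * rr T₂ π * rr (unT T₃) π := by
    intro π
    by_cases he : ∃ j ∈ π.cycleType, Even j
    · rw [rr_staircase_even m T₁ π he]
      ring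
    · rw [hrr, rr_tFill, sgnZ_of_no_even π he]
      push_cast
      ring
  simp_rw [hterm]
  exact hne

end Vale.Agent.Lib.P197W
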