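import Vale.Agent.Lib.P197W.Defs

/-!
# P197W: averaging the matrix coefficient over relabellings gives the character (blueprint Sec 3)
-/

open Equiv Finset

namespace Vale.Agent.Lib.P197W

open Vale.Agent.Lib.P197

variable {n : ℕ} {μ : YoungDiagram}

lemma mem_colS' {c : Fin n → ℕ} {q : Perm (Fin n)} : q ∈ colS c ↔ ∀ x, c (q x) = c x := by
  simp [colS]

lemma colS_mul' {c : Fin n → ℕ} {a b : Perm (Fin n)} (ha : a ∈ colS c) (hb : b ∈ colS c) :
    a * b ∈ colS c := by
  rw [mem_colS'] at *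
  intro x
  rw [Perm.mul_apply, ha, hb]

lemma colS_inv' {c : Fin n → ℕ} {a : Perm (Fin n)} (ha : a ∈ colS c) : a⁻¹ ∈ colS c := by
  rw [mem_colS'] at *
  intro x
  have := ha (a⁻¹ x)
  have e : a (a⁻¹ x) = x := by simp
  rw [e] at this
  exact this.symm

lemma sgnZ_mul' (a b : Perm (Fin n)) : sgnZ (a * b) = sgnZ a * sgnZ b := by
  simp [sgnZ, Perm.sign_mul]

lemma sgnZ_inv' (a : Perm (Fin n)) : sgnZ a⁻¹ = sgnZ a := by
  simp [sgnZ, Perm.sign_inv]

lemma sgnZ_mul_self' (a : Perm (Fin n)) : sgnZ a * sgnZ a = 1 := by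
  have h := Int.units_mul_self (Perm.sign a)
  have h2 : (((Perm.sign a * Perm.sign a : ℤˣ)) : ℤ) = ((1 : ℤˣ) : ℤ) := by rw [h]
  rw [Units.val_mul] at h2
  simpa [sgnZ] using h2

lemma colStab_eq_colS (T : Filling n μ) : colStab T = colS (colOf T) := rfl

/-- Relabelling the filling conjugates the matrix coefficient. -/
theorem gF_relabel (T : Filling n μ) (σ π : Perm (Fin n)) :
    gF (rowOf (σ.trans T)) (colOf (σ.trans T)) π = gF (rowOf T) (colOf T) (σ * π * σ⁻¹) := by
  classical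
  unfold gF
  have hr : ∀ x, rowOf (σ.trans T) x = rowOf T (σ x) := fun _ => rfl
  have hc : ∀ x, colOf (σ.trans T) x = colOf T (σ x) := fun _ => rfl
  let φ : Perm (Fin n) ≃ Perm (Fin n) := (MulAut.conj σ).toEquiv
  have hφ : ∀ q : Perm (Fin n), φ q = σ * q * σ⁻¹ := fun _ => rfl
  have hmem : ∀ q : Perm (Fin n), q ∈ colS (colOf (σ.trans T)) ↔ φ q ∈ colS (colOf T) := by
    intro q
    rw [mem_colS', mem_colS', hφ]
    constructor
    · intro h x
      have := h (σ⁻¹ x)
      rw [hc, hc] at this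
      simpa using this
    · intro h x
      have := h (σ x)
      rw [hc, hc]
      simpa using this
  have hsg : ∀ q : Perm (Fin n), sgnZ (φ q) = sgnZ q := by
    intro q
    rw [hφ, sgnZ_mul', sgnZ_mul', sgnZ_inv']
    have := sgnZ_mul_self' σ
    calc sgnZ σ * sgnZ q * sgnZ σ = (sgnZ σ * sgnZ σ) * sgnZ q := by ring
      _ = sgnZ q := by rw [this, one_mul]
  refine Finset.sum_equiv φ hmem (fun q _ => ?_)
  refine Finset.sum_equiv φ hmem (fun q' _ => ?_)
  rw [hsg, hsg]
  congr 1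
  have hiff : (∀ x, rowOf (σ.trans T) (q (π x)) = rowOf (σ.trans T) (q' x)) ↔
      ∀ x, rowOf T (φ q ((σ * π * σ⁻¹) x)) = rowOf T (φ q' x) := by
    rw [hφ, hφ]
    constructor
    · intro h x
      have := h (σ⁻¹ x)
      rw [hr, hr] at this
      simpa using this
    · intro h x
      have := h (σ x)
      rw [hr, hr]
      simpa using this
  simp only [hiff]

/-- The inner sum of the symmetrizer coefficient. -/
def aF (T : Filling n μ) (h : Perm (Fin n)) : ℤ :=
  ∑ q ∈ colS (colOf T), sgnZ q * (if ∀ x, rowOf T (h (q x)) = rowOf T x then 1 else 0)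

lemma symCoeff_eq_aF (T : Filling n μ) (h : Perm (Fin n)) : symCoeff T h = aF T h := by
  classical
  unfold symCoeff aF
  rw [Finset.sum_comm]
  rw [colStab_eq_colS]
  refine Finset.sum_bij' (fun q _ => q⁻¹) (fun q _ => q⁻¹) (fun q hq => colS_inv' hq)
    (fun q hq => colS_inv' hq) (fun q _ => inv_inv q) (fun q _ => inv_inv q) ?_
  intro q hq
  -- the inner sum over the row stabiliser has at most one term
  by_cases hmem : h * q⁻¹ ∈ rowStab T
  · have h1 : ∀ x, rowOf T ((h * q⁻¹) x) = rowOf T x := by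
      simpa [rowStab] using hmem
    have hif : (∀ x, rowOf T (h (q⁻¹ x)) = rowOf T x) := by simpa using h1
    rw [if_pos hif, mul_one, sgnZ_inv']
    rw [Finset.sum_eq_single (h * q⁻¹)]
    · rw [if_pos (by group)]
    · intro p _ hp
      rw [if_neg]
      intro he
      apply hp
      rw [← he]
      group
    · intro hn
      exact absurd hmem hn
  · have hif : ¬ (∀ x, rowOf T (h (q⁻¹ x)) = rowOf T x) := by
      intro h1
      apply hmem
      simpa [rowStab] using h1
    rw [if_neg hif, mul_zero]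
    refine Finset.sum_eq_zero (fun p hp => ?_)
    rw [if_neg]
    intro he
    apply hmem
    have : h * q⁻¹ = p := by
      rw [← he]
      group
    rw [this]
    exact hp

/-- For a fixed `q`, the inner sum equals the sum of `aF`. -/
lemma inner_sum (T : Filling n μ) (π q : Perm (Fin n)) (hq : q ∈ colS (colOf T)) :
    ∑ σ : Perm (Fin n), ∑ q' ∈ colS (colOf T), sgnZ q * sgnZ q' *
        (if ∀ x, rowOf T (q ((σ⁻¹ * π * σ) x)) = rowOf T (q' x) then 1 else 0) =
      ∑ σ : Perm (Fin n), aF T (σ⁻¹ * π * σ) := by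
  classical
  refine Fintype.sum_equiv (Equiv.mulRight q⁻¹) _ _ (fun σ => ?_)
  have hconj : (σ * q⁻¹)⁻¹ * π * (σ * q⁻¹) = q * (σ⁻¹ * π * σ) * q⁻¹ := by group
  simp only [Equiv.coe_mulRight]
  rw [hconj]
  unfold aF
  set h₀ := σ⁻¹ * π * σ with hh₀
  refine Finset.sum_bij' (fun q' _ => q * q'⁻¹) (fun q'' _ => q''⁻¹ * q)
    (fun q' hq' => colS_mul' hq (colS_inv' hq'))
    (fun q'' hq'' => colS_mul' (colS_inv' hq'') hq) (fun q' _ => by group) (fun q'' _ => by group) ?_
  intro q' hq'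
  have hs : sgnZ (q * q'⁻¹) = sgnZ q * sgnZ q' := by rw [sgnZ_mul', sgnZ_inv']
  rw [hs]
  congr 1
  -- the conditions agree
  have hiff : (∀ x, rowOf T (q (h₀ x)) = rowOf T (q' x)) ↔
      ∀ x, rowOf T ((q * h₀ * q⁻¹) ((q * q'⁻¹) x)) = rowOf T x := by
    constructor
    · intro h x
      have := h (q'⁻¹ x)
      simpa using this
    · intro h x
      have := h (q' x)
      simpa using this
  simp only [hiff]

/-- The sum over conjugates of the matrix coefficient. -/
theorem gF_conj_sum (T : Filling n μ) (π : Perm (Fin n)) :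
    ((∑ σ : Perm (Fin n), gF (rowOf T) (colOf T) (σ⁻¹ * π * σ) : ℤ) : ℝ) =
      ((colStab T).card : ℝ) * ((n.factorial : ℕ) : ℝ) * rr T π := by
  classical
  have h1 : ∑ σ : Perm (Fin n), gF (rowOf T) (colOf T) (σ⁻¹ * π * σ) =
      ((colStab T).card : ℤ) * ∑ σ : Perm (Fin n), symCoeff T (σ⁻¹ * π * σ) := by
    unfold gF
    rw [Finset.sum_comm]
    have h2 : ∀ q ∈ colS (colOf T), ∑ σ : Perm (Fin n), ∑ q' ∈ colS (colOf T), sgnZ q * sgnZ q' *
        (if ∀ x, rowOf T (q ((σ⁻¹ * π * σ) x)) = rowOf T (q' x) then 1 else 0) =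
      ∑ σ : Perm (Fin n), symCoeff T (σ⁻¹ * π * σ) := by
      intro q hq
      rw [inner_sum T π q hq]
      exact Finset.sum_congr rfl (fun σ _ => (symCoeff_eq_aF T _).symm)
    rw [Finset.sum_congr rfl h2, Finset.sum_const, colStab_eq_colS, nsmul_eq_mul]
  rw [h1]
  have h3 : rr T π = ((n.factorial : ℕ) : ℝ)⁻¹ * ∑ g : Perm (Fin n), (symCoeff T (g⁻¹ * π * g) : ℝ) := by
    rw [← rr_inv T π]
    unfold rr
    simp
  rw [h3]
  have hn : ((n.factorial : ℕ) : ℝ) ≠ 0 := by exact_mod_cast n.factorial_ne_zero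
  push_cast
  field_simp

/-- **Averaging.** -/
theorem gF_avg (T : Filling n μ) (π : Perm (Fin n)) :
    ((∑ σ : Perm (Fin n), gF (rowOf (σ.trans T)) (colOf (σ.trans T)) π : ℤ) : ℝ) =
      ((colStab T).card : ℝ) * ((n.factorial : ℕ) : ℝ) * rr T π := by
  rw [← gF_conj_sum T π]
  congr 1
  have h : ∀ σ : Perm (Fin n), gF (rowOf (σ.trans T)) (colOf (σ.trans T)) π =
      gF (rowOf T) (colOf T) (σ * π * σ⁻¹) := fun σ => gF_relabel T σ π
  rw [Finset.sum_congr rfl (fun σ _ => h σ)]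
  refine Fintype.sum_equiv (Equiv.inv (Perm (Fin n))) _ _ (fun σ => ?_)
  simp

end Vale.Agent.Lib.P197W
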