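import Vale.Agent.Lib.P197S.FinalR
import Vale.Agent.Lib.P197.KronLink
import Vale.Agent.Lib.P197.EvenVanish
import Vale.Agent.Lib.P197.Staircase

/-!
# P197W: the polytabloid polynomial of three fillings (blueprint notes/P197W_blueprint.md)
-/

open Equiv Finset MvPolynomial

namespace Vale.Agent.Lib.P197W

open Vale.Agent.Lib.P197

variable {n : ℕ}

/-- The sign of a permutation as an integer. -/
abbrev sgnZ (q : Perm (Fin n)) : ℤ := ((Perm.sign q : ℤˣ) : ℤ)

/-- The permutations preserving a column function. -/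
def colS (c : Fin n → ℕ) : Finset (Perm (Fin n)) :=
  univ.filter fun q => ∀ x, c (q x) = c x

/-- The matrix coefficient of the polytabloid of a row function `r` and a column function `c`. -/
def gF (r c : Fin n → ℕ) (π : Perm (Fin n)) : ℤ :=
  ∑ q ∈ colS c, ∑ q' ∈ colS c,
    sgnZ q * sgnZ q' * (if ∀ x, r (q (π x)) = r (q' x) then 1 else 0)

/-- The polytabloid polynomial of three row and column functions. -/
noncomputable def polyF (r₁ c₁ r₂ c₂ r₃ c₃ : Fin n → ℕ) : MvPolynomial (ℕ × ℕ × ℕ) ℤ :=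
  ∑ q₁ ∈ colS c₁, ∑ q₂ ∈ colS c₂, ∑ q₃ ∈ colS c₃,
    C (sgnZ q₁ * sgnZ q₂ * sgnZ q₃) * ∏ x, X (r₁ (q₁ x), r₂ (q₂ x), r₃ (q₃ x))

/-- The sum of the products of the three matrix coefficients. -/
def mF (r₁ c₁ r₂ c₂ r₃ c₃ : Fin n → ℕ) : ℤ :=
  ∑ π : Perm (Fin n), gF r₁ c₁ π * gF r₂ c₂ π * gF r₃ c₃ π

variable {la mu nu : YoungDiagram}

/-- The polynomial of three fillings. -/
noncomputable def polyP (T₁ : Filling n la) (T₂ : Filling n mu) (T₃ : Filling n nu) :
    MvPolynomial (ℕ × ℕ × ℕ) ℤ :=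
  polyF (rowOf T₁) (colOf T₁) (rowOf T₂) (colOf T₂) (rowOf T₃) (colOf T₃)

/-- The statement that the character triple sum is non zero for all fillings. -/
def PosS (m : ℕ) (ν : YoungDiagram) : Prop :=
  ∀ (T₁ T₂ : Filling (m * (m + 1) / 2) (staircase m)) (T₃ : Filling (m * (m + 1) / 2) ν),
    ∑ π : Perm (Fin (m * (m + 1) / 2)), rr T₁ π * rr T₂ π * rr T₃ π ≠ 0

/-- A sum of fillings: `e` splits the labels into two blocks; rows are inherited, and columns are
inherited inside a block and different between the blocks. -/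
structure IsSum {N k l : ℕ} (e : Fin N ≃ Fin k ⊕ Fin l) (r c : Fin k → ℕ) (r' c' : Fin l → ℕ)
    (rp cp : Fin N → ℕ) : Prop where
  row_inl : ∀ x, rp (e.symm (Sum.inl x)) = r x
  row_inr : ∀ y, rp (e.symm (Sum.inr y)) = r' y
  col_inl : ∀ x x', cp (e.symm (Sum.inl x)) = cp (e.symm (Sum.inl x')) ↔ c x = c x'
  col_inr : ∀ y y', cp (e.symm (Sum.inr y)) = cp (e.symm (Sum.inr y')) ↔ c' y = c' y'
  col_ne : ∀ x y, cp (e.symm (Sum.inl x)) ≠ cp (e.symm (Sum.inr y))

/-- The diagram `ν` with `k` cells removed from the end of its first row. -/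
def trimRow (ν : YoungDiagram) (k : ℕ) (h : ν.rowLen 1 + k ≤ ν.rowLen 0) : YoungDiagram where
  cells := ν.cells.filter fun c => c.1 ≠ 0 ∨ c.2 + k < ν.rowLen 0
  isLowerSet := by
    intro a b hab ha
    simp only [coe_filter, Set.mem_ofPred_eq] at ha ⊢
    obtain ⟨ha1, ha2⟩ := ha
    have hb1 : b ∈ ν.cells := ν.isLowerSet hab ha1
    refine ⟨hb1, ?_⟩
    by_cases hb0 : b.1 = 0
    · right
      have hb2 : b.2 ≤ a.2 := hab.2
      rcases ha2 with ha2 | ha2
      · have hlt : a.2 < ν.rowLen a.1 := YoungDiagram.mem_iff_lt_rowLen.1 ha1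
        have h1 : ν.rowLen a.1 ≤ ν.rowLen 1 := ν.rowLen_anti 1 a.1 (by omega)
        omega
      · omega
    · left
      exact hb0

end Vale.Agent.Lib.P197W
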