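import Vale.Agent.Lib.P197W.Ops
import Vale.Agent.Lib.P197W.Conj

/-!
# P197W: the principal hook theorem (blueprint Sec 8)
-/

open Equiv Finset

namespace Vale.Agent.Lib.P197W

open Vale.Agent.Lib.P197

/-- The number of cells outside the first row and the first column. -/
def coreSize (ν : YoungDiagram) : ℕ := (ν.cells.filter fun c => 1 ≤ c.1 ∧ 1 ≤ c.2).card

/-- A non empty core has the cell `(1,1)`. -/
theorem one_one_mem (ν : YoungDiagram) (h : 1 ≤ coreSize ν) : (1, 1) ∈ ν := by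
  unfold coreSize at h
  obtain ⟨c, hc⟩ := Finset.card_pos.1 h
  obtain ⟨hc1, hc2, hc3⟩ := Finset.mem_filter.1 hc
  exact ν.up_left_mem hc2 hc3 (by simpa using hc1)

theorem coreSize_le_card (ν : YoungDiagram) : coreSize ν ≤ ν.card :=
  Finset.card_filter_le _ _

/-- The size of the core under trimming. -/
theorem coreSize_trimRow (ν : YoungDiagram) (t : ℕ) (h : ν.rowLen 1 + t ≤ ν.rowLen 0) :
    coreSize (trimRow ν t h) = coreSize ν := by
  unfold coreSize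
  congr 1
  ext c
  simp only [trimRow, Finset.mem_filter]
  constructor
  · rintro ⟨⟨h1, _⟩, h3⟩
    exact ⟨h1, h3⟩
  · rintro ⟨h1, h3⟩
    exact ⟨⟨h1, Or.inl (by omega)⟩, h3⟩

theorem coreSize_transpose (ν : YoungDiagram) : coreSize ν.transpose = coreSize ν := by
  unfold coreSize
  refine Finset.card_bij (fun c _ => c.swap) ?_ ?_ ?_
  · intro c hc
    obtain ⟨h1, h2, h3⟩ := Finset.mem_filter.1 hc
    refine Finset.mem_filter.2 ⟨?_, h3, h2⟩
    have : c ∈ ν.transpose := h1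
    have h4 : c.2 = c.swap.1 := rfl
    exact (YoungDiagram.mem_transpose (μ := ν) (c := c)).1 this
  · intro a _ b _ hab
    exact Prod.swap_injective hab
  · intro c hc
    obtain ⟨h1, h2, h3⟩ := Finset.mem_filter.1 hc
    refine ⟨c.swap, Finset.mem_filter.2 ⟨?_, h3, h2⟩, Prod.swap_swap c⟩
    exact (YoungDiagram.mem_transpose (μ := ν) (c := c.swap)).2 (by simpa using h1)

/-- Numerics: the length of the first row of the staircase against the power `11/20`. -/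
theorem params_m : ∃ m₁ : ℕ, ∀ m ≥ m₁,
    (m : ℝ) ≤ (1 / 2) * ((m * (m + 1) / 2 : ℕ) : ℝ) ^ (11 / 20 : ℝ) := by
  refine ⟨4 ^ 11, fun m hm => ?_⟩
  have hm1 : (4 : ℝ) ^ 11 ≤ m := by exact_mod_cast hm
  have hm0 : (0 : ℝ) < m := lt_of_lt_of_le (by norm_num) hm1
  -- `m(m+1)/2 ≥ m^2/2 ≥ ...`
  have h1 : (m : ℝ) ^ 2 / 2 ≤ ((m * (m + 1) / 2 : ℕ) : ℝ) := by
    have h2 : m * m ≤ 2 * (m * (m + 1) / 2) := by
      have : 2 ∣ m * (m + 1) := Nat.even_mul_succ_self m |>.two_dvd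
      have h3 : 2 * (m * (m + 1) / 2) = m * (m + 1) := Nat.mul_div_cancel' this
      rw [h3]
      nlinarith
    have h3 : ((m * m : ℕ) : ℝ) ≤ ((2 * (m * (m + 1) / 2) : ℕ) : ℝ) := by exact_mod_cast h2
    push_cast at h3
    nlinarith
  -- and `m^2/2 ≥ m^(20/11)*2^(20/11)`, i.e. `m^(2/11) ≥ 2 * 2^(20/11)`
  have h4 : (2 * (m : ℝ)) ^ (20 / 11 : ℝ) ≤ (m : ℝ) ^ 2 / 2 := by
    have a1 : (2 * (m : ℝ)) ^ (20 / 11 : ℝ) = (2 : ℝ) ^ (20 / 11 : ℝ) * (m : ℝ) ^ (20 / 11 : ℝ) :=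
      Real.mul_rpow (by norm_num) hm0.le
    have a2 : (2 : ℝ) ^ (20 / 11 : ℝ) ≤ (2 : ℝ) ^ (2 : ℝ) :=
      Real.rpow_le_rpow_of_exponent_le (by norm_num) (by norm_num)
    have a3 : (2 : ℝ) ^ (2 : ℝ) = 4 := by norm_num
    have a4 : (m : ℝ) ^ 2 = (m : ℝ) ^ (20 / 11 : ℝ) * (m : ℝ) ^ (2 / 11 : ℝ) := by
      rw [← Real.rpow_add hm0, ← Real.rpow_natCast]
      norm_num
    have a5 : (16 : ℝ) ≤ (m : ℝ) ^ (2 / 11 : ℝ) := by
      have b1 : (((4 : ℝ) ^ 11) : ℝ) ^ (2 / 11 : ℝ) ≤ (m : ℝ) ^ (2 / 11 : ℝ) :=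
        Real.rpow_le_rpow (by positivity) hm1 (by norm_num)
      have b2 : (((4 : ℝ) ^ 11) : ℝ) ^ (2 / 11 : ℝ) = 16 := by
        rw [← Real.rpow_natCast, ← Real.rpow_mul (by norm_num)]
        norm_num
      linarith
    have a6 : 0 < (m : ℝ) ^ (20 / 11 : ℝ) := Real.rpow_pos_of_pos hm0 _
    rw [a1, a4]
    nlinarith
  have h5 : ((2 * (m : ℝ)) ^ (20 / 11 : ℝ)) ^ (11 / 20 : ℝ) = 2 * (m : ℝ) := by
    rw [← Real.rpow_mul (by positivity)]
    norm_num
  have h6 : 2 * (m : ℝ) ≤ ((m * (m + 1) / 2 : ℕ) : ℝ) ^ (11 / 20 : ℝ) := by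
    rw [← h5]
    exact Real.rpow_le_rpow (by positivity) (h4.trans h1) (by norm_num)
  linarith

private theorem card_transpose_aux (ν : YoungDiagram) : ν.transpose.card = ν.card := by
  change ((Equiv.prodComm _ _).finsetCongr ν.cells).card = ν.cells.card
  simp [Equiv.finsetCongr_apply]

/-- **The principal hook theorem.** -/
theorem hook_core : ∃ N₀ : ℕ, ∀ (m : ℕ) (ν : YoungDiagram), ν.card = m * (m + 1) / 2 →
    N₀ ≤ coreSize ν →
    (ν.rowLen 1 : ℝ) ≤ (1 / 2) * (coreSize ν : ℝ) ^ (11 / 20 : ℝ) →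
    (ν.colLen 1 : ℝ) ≤ (1 / 2) * (coreSize ν : ℝ) ^ (11 / 20 : ℝ) →
    PosS m ν := by
  obtain ⟨m₀, h₀⟩ := Vale.Agent.Lib.P197S.balanced_1120
  obtain ⟨m₁, h₁⟩ := params_m
  set M : ℕ := max m₀ m₁ with hM
  refine ⟨max 2 (M * (M + 1) / 2), ?_⟩
  intro m
  induction m with
  | zero =>
    intro ν hν hN _ _
    exfalso
    have h1 := coreSize_le_card ν
    have h2 : 2 ≤ coreSize ν := le_trans (le_max_left _ _) hN
    simp only [Nat.zero_mul, Nat.zero_div] at hν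
    omega
  | succ m ih =>
    -- the case of a long first row
    have key : ∀ ν : YoungDiagram, ν.card = (m + 1) * (m + 1 + 1) / 2 →
        max 2 (M * (M + 1) / 2) ≤ coreSize ν →
        (ν.rowLen 1 : ℝ) ≤ (1 / 2) * (coreSize ν : ℝ) ^ (11 / 20 : ℝ) →
        (ν.colLen 1 : ℝ) ≤ (1 / 2) * (coreSize ν : ℝ) ^ (11 / 20 : ℝ) →
        ν.rowLen 1 + (m + 1) ≤ ν.rowLen 0 → PosS (m + 1) ν := by
      intro ν hν hN hr hc hlong
      have h2 : 2 ≤ coreSize ν := le_trans (le_max_left _ _) hN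
      have h11 : (1, 1) ∈ ν := one_one_mem ν (by omega)
      have hrl : 2 ≤ ν.rowLen 1 := by
        have := YoungDiagram.mem_iff_lt_rowLen.1 h11
        omega
      refine step m ν hlong hν ?_
      refine ih (trimRow ν (m + 1) hlong) ?_ ?_ ?_ ?_
      · have h3 := trimRow_card ν (m + 1) hlong
        have hN2 : 2 * ((m + 1) * (m + 1 + 1) / 2) = (m + 1) * (m + 1 + 1) :=
          Nat.two_mul_div_two_of_even (Nat.even_mul_succ_self (m + 1))
        have hk2 : 2 * (m * (m + 1) / 2) = m * (m + 1) :=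
          Nat.two_mul_div_two_of_even (Nat.even_mul_succ_self m)
        have hr2 : (m + 1) * (m + 1 + 1) = m * (m + 1) + 2 * (m + 1) := by ring
        omega
      · rw [coreSize_trimRow]; exact hN
      · rw [coreSize_trimRow, trimRow_rowLen_succ ν (m + 1) hlong 0]; exact hr
      · rw [coreSize_trimRow, trimRow_colLen ν (m + 1) hlong 1 (by omega)]; exact hc
    intro ν hν hN hr hc
    by_cases ha : ν.rowLen 1 + (m + 1) ≤ ν.rowLen 0
    · exact key ν hν hN hr hc ha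
    by_cases hb : ν.colLen 1 + (m + 1) ≤ ν.colLen 0
    · have ht := key ν.transpose (by rw [card_transpose_aux]; exact hν)
        (by rw [coreSize_transpose]; exact hN)
        (by rw [coreSize_transpose, YoungDiagram.rowLen_transpose]; exact hc)
        (by rw [coreSize_transpose, YoungDiagram.colLen_transpose]; exact hr)
        (by rw [YoungDiagram.rowLen_transpose, YoungDiagram.rowLen_transpose]; exact hb)
      have := posS_transpose (m + 1) ν.transpose ht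
      rwa [YoungDiagram.transpose_transpose] at this
    -- the balanced case
    push Not at ha hb
    have hcore : coreSize ν ≤ (m + 1) * (m + 1 + 1) / 2 := hν ▸ coreSize_le_card ν
    have hMle : M ≤ m + 1 := by
      by_contra hlt
      push Not at hlt
      have h3 : M * (M + 1) / 2 ≤ coreSize ν := le_trans (le_max_right _ _) hN
      have h4 : (m + 1) * (m + 1 + 1) < M * (M + 1) := by nlinarith
      have hN2 : 2 * ((m + 1) * (m + 1 + 1) / 2) = (m + 1) * (m + 1 + 1) :=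
        Nat.two_mul_div_two_of_even (Nat.even_mul_succ_self (m + 1))
      have hk2 : 2 * (M * (M + 1) / 2) = M * (M + 1) :=
        Nat.two_mul_div_two_of_even (Nat.even_mul_succ_self M)
      omega
    have hm0 : m₀ ≤ m + 1 := le_trans (le_max_left _ _) hMle
    have hm1 : m₁ ≤ m + 1 := le_trans (le_max_right _ _) hMle
    have hpar := h₁ (m + 1) hm1
    set n : ℝ := (((m + 1) * (m + 1 + 1) / 2 : ℕ) : ℝ) with hn
    have hcp : ((coreSize ν : ℕ) : ℝ) ^ (11 / 20 : ℝ) ≤ n ^ (11 / 20 : ℝ) := by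
      apply Real.rpow_le_rpow (Nat.cast_nonneg _) _ (by norm_num)
      rw [hn]
      exact_mod_cast hcore
    have hpar' : ((m + 1 : ℕ) : ℝ) ≤ (1 / 2) * n ^ (11 / 20 : ℝ) := hpar
    have hrow : (ν.rowLen 0 : ℝ) ≤ n ^ (11 / 20 : ℝ) := by
      have h5 : (ν.rowLen 0 : ℝ) ≤ (ν.rowLen 1 : ℝ) + ((m + 1 : ℕ) : ℝ) := by
        exact_mod_cast ha.le
      linarith
    have hcol : (ν.colLen 0 : ℝ) ≤ n ^ (11 / 20 : ℝ) := by
      have h5 : (ν.colLen 0 : ℝ) ≤ (ν.colLen 1 : ℝ) + ((m + 1 : ℕ) : ℝ) := by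
        exact_mod_cast hb.le
      linarith
    intro T₁ T₂ T₃
    have hpos := h₀ (m + 1) hm0 ν hν hrow hcol T₁ T₂ T₃
    intro hzero
    have he := kronecker_eq T₁ T₂ T₃
    rw [hzero, mul_zero] at he
    have : (kronecker T₁ T₂ T₃ : ℝ) ≠ 0 := by exact_mod_cast hpos.ne'
    exact this he

/-- The Kronecker form. -/
theorem hook_core_kronecker : ∃ N₀ : ℕ, ∀ (m : ℕ) (ν : YoungDiagram), ν.card = m * (m + 1) / 2 →
    N₀ ≤ coreSize ν →
    (ν.rowLen 1 : ℝ) ≤ (1 / 2) * (coreSize ν : ℝ) ^ (11 / 20 : ℝ) →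
    (ν.colLen 1 : ℝ) ≤ (1 / 2) * (coreSize ν : ℝ) ^ (11 / 20 : ℝ) →
    ∀ (T₁ T₂ : Filling (m * (m + 1) / 2) (staircase m)) (T₃ : Filling (m * (m + 1) / 2) ν),
      0 < kronecker T₁ T₂ T₃ := by
  obtain ⟨N₀, h⟩ := hook_core
  exact ⟨N₀, fun m ν hν hN hr hc T₁ T₂ T₃ => kronecker_pos T₁ T₂ T₃ (h m ν hν hN hr hc T₁ T₂ T₃)⟩

end Vale.Agent.Lib.P197W
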