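import Vale.Agent.Lib.P197W.Defs

/-!
# P197W: the Gram form (blueprint Sec 2)
-/

open Equiv Finset MvPolynomial

namespace Vale.Agent.Lib.P197W

variable {n : ℕ}

section Colourings

variable {V : Type*} [DecidableEq V]

/-- The content of a colouring. -/
noncomputable def degF (φ : Fin n → V) : V →₀ ℕ := ∑ x, Finsupp.single (φ x) 1

/-- The number of permutations carrying `φ` to `ψ`. -/
def nF (φ ψ : Fin n → V) : ℕ :=
  (univ.filter fun π : Perm (Fin n) => ∀ x, φ (π x) = ψ x).card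

omit [DecidableEq V] in
theorem prod_X_eq (φ : Fin n → V) :
    ∏ x, (X (φ x) : MvPolynomial V ℤ) = monomial (degF φ) 1 := by
  classical
  have h : ∀ s : Finset (Fin n), ∏ x ∈ s, (X (φ x) : MvPolynomial V ℤ) =
      monomial (∑ x ∈ s, Finsupp.single (φ x) 1) 1 := by
    intro s
    induction s using Finset.induction_on with
    | empty => simp
    | insert a s ha ih =>
      rw [Finset.prod_insert ha, Finset.sum_insert ha, ih, X, monomial_mul, one_mul]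
  exact h univ

theorem degF_apply (φ : Fin n → V) (v : V) :
    degF φ v = (univ.filter fun x => φ x = v).card := by
  classical
  simp only [degF, Finsupp.coe_finsetSum, Finset.sum_apply, Finsupp.single_apply]
  rw [Finset.card_filter]

theorem degF_eq_of_perm {φ ψ : Fin n → V} {π : Perm (Fin n)} (h : ∀ x, φ (π x) = ψ x) :
    degF φ = degF ψ := by
  unfold degF
  exact (Fintype.sum_equiv π (fun x => Finsupp.single (ψ x) 1) (fun x => Finsupp.single (φ x) 1)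
    (fun x => by rw [h])).symm

theorem exists_perm_of_degF {φ ψ : Fin n → V} (h : degF φ = degF ψ) :
    ∃ π : Perm (Fin n), ∀ x, φ (π x) = ψ x := by
  classical
  have hcard : ∀ v, Fintype.card {x // ψ x = v} = Fintype.card {x // φ x = v} := by
    intro v
    rw [Fintype.card_subtype, Fintype.card_subtype, ← degF_apply, ← degF_apply, h]
  let e : ∀ v, {x // ψ x = v} ≃ {x // φ x = v} := fun v => Fintype.equivOfCardEq (hcard v)
  exact ⟨Equiv.ofFiberEquiv e, fun x => Equiv.ofFiberEquiv_map e x⟩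

/-- `nF` does not see a reparametrisation of the first argument. -/
theorem nF_left {φ ψ : Fin n → V} (χ : Fin n → V) {ρ : Perm (Fin n)} (h : ∀ x, φ (ρ x) = ψ x) :
    nF φ χ = nF ψ χ := by
  unfold nF
  refine Finset.card_bij (fun π _ => ρ⁻¹ * π) ?_ ?_ ?_
  · intro π hπ
    simp only [mem_filter, mem_univ, true_and] at hπ ⊢
    intro x
    rw [← h]
    simpa [Perm.mul_apply] using hπ x
  · intro a _ b _ hab
    exact mul_left_cancel hab
  · intro π hπ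
    simp only [mem_filter, mem_univ, true_and] at hπ
    refine ⟨ρ * π, ?_, by simp⟩
    simp only [mem_filter, mem_univ, true_and]
    intro x
    rw [Perm.mul_apply, h, hπ]

/-- `nF` does not see a reparametrisation of the second argument. -/
theorem nF_right (χ : Fin n → V) {φ ψ : Fin n → V} {ρ : Perm (Fin n)} (h : ∀ x, φ (ρ x) = ψ x) :
    nF χ φ = nF χ ψ := by
  unfold nF
  refine Finset.card_bij (fun π _ => π * ρ) ?_ ?_ ?_
  · intro π hπ
    simp only [mem_filter, mem_univ, true_and] at hπ ⊢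
    intro x
    rw [Perm.mul_apply, hπ, h]
  · intro a _ b _ hab
    exact mul_right_cancel hab
  · intro π hπ
    simp only [mem_filter, mem_univ, true_and] at hπ
    refine ⟨π * ρ⁻¹, ?_, by simp⟩
    simp only [mem_filter, mem_univ, true_and]
    intro x
    have := hπ (ρ⁻¹ x)
    rw [← h] at this
    simpa [Perm.mul_apply] using this

/-- The weight attached to a content. -/
noncomputable def wF (m : V →₀ ℕ) : ℕ := by
  classical
  exact if h : ∃ φ : Fin n → V, degF φ = m then nF h.choose h.choose else 1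

theorem wF_pos (m : V →₀ ℕ) : 0 < wF (n := n) m := by
  classical
  unfold wF
  split_ifs with h
  · refine Finset.card_pos.2 ⟨1, ?_⟩
    simp
  · exact one_pos

theorem nF_eq_wF {φ ψ : Fin n → V} (h : degF φ = degF ψ) : nF φ ψ = wF (n := n) (degF φ) := by
  classical
  have hex : ∃ χ : Fin n → V, degF χ = degF φ := ⟨φ, rfl⟩
  unfold wF
  rw [dif_pos hex]
  obtain ⟨ρ₁, hρ₁⟩ := exists_perm_of_degF (hex.choose_spec.trans rfl : degF hex.choose = degF φ)
  obtain ⟨ρ₂, hρ₂⟩ := exists_perm_of_degF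
    ((hex.choose_spec.trans h) : degF hex.choose = degF ψ)
  rw [← nF_left ψ hρ₁, ← nF_right _ hρ₂]

theorem nF_eq_zero {φ ψ : Fin n → V} (h : degF φ ≠ degF ψ) : nF φ ψ = 0 := by
  unfold nF
  rw [Finset.card_eq_zero, Finset.filter_eq_empty_iff]
  intro π _ hπ
  exact h (degF_eq_of_perm hπ)

end Colourings

/-- **Gram lemma.** -/
theorem gram {V Q : Type*} [DecidableEq V] [DecidableEq Q] (S : Finset Q) (s : Q → ℤ)
    (τ : Q → Fin n → V) :
    0 ≤ ∑ π : Perm (Fin n), ∑ a ∈ S, ∑ b ∈ S,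
        s a * s b * (if ∀ x, τ a (π x) = τ b x then 1 else 0) ∧
      ((∑ π : Perm (Fin n), ∑ a ∈ S, ∑ b ∈ S,
        s a * s b * (if ∀ x, τ a (π x) = τ b x then 1 else 0)) = 0 ↔
        ∑ a ∈ S, C (s a) * ∏ x, X (τ a x) = (0 : MvPolynomial V ℤ)) := by
  classical
  -- the coefficient of a content
  set cc : (V →₀ ℕ) → ℤ := fun m => ∑ a ∈ S.filter (fun a => degF (τ a) = m), s a with hcc
  set D : Finset (V →₀ ℕ) := S.image fun a => degF (τ a) with hD
  have hM : (∑ π : Perm (Fin n), ∑ a ∈ S, ∑ b ∈ S,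
        s a * s b * (if ∀ x, τ a (π x) = τ b x then 1 else 0)) =
      ∑ m ∈ D, (wF (n := n) m : ℤ) * cc m ^ 2 := by
    -- swap the sums
    have h1 : (∑ π : Perm (Fin n), ∑ a ∈ S, ∑ b ∈ S,
        s a * s b * (if ∀ x, τ a (π x) = τ b x then 1 else 0)) =
        ∑ a ∈ S, ∑ b ∈ S, s a * s b * (nF (τ a) (τ b) : ℤ) := by
      rw [Finset.sum_comm]
      refine Finset.sum_congr rfl fun a _ => ?_
      rw [Finset.sum_comm]
      refine Finset.sum_congr rfl fun b _ => ?_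
      rw [← Finset.mul_sum, nF, Finset.card_filter]
      push_cast
      rfl
    rw [h1]
    -- group by the content of `a`
    have h2 : ∀ a ∈ S, ∑ b ∈ S, s a * s b * (nF (τ a) (τ b) : ℤ) =
        s a * (wF (n := n) (degF (τ a)) : ℤ) * cc (degF (τ a)) := by
      intro a _
      simp only [hcc]
      rw [Finset.sum_filter, Finset.mul_sum]
      refine Finset.sum_congr rfl fun b _ => ?_
      by_cases hab : degF (τ b) = degF (τ a)
      · rw [if_pos hab, nF_eq_wF hab.symm]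
        ring
      · rw [if_neg hab, nF_eq_zero (Ne.symm hab)]
        simp
    rw [Finset.sum_congr rfl h2,
      ← Finset.sum_fiberwise_of_maps_to (t := D) (g := fun a => degF (τ a))
        (fun a ha => Finset.mem_image_of_mem _ ha)]
    refine Finset.sum_congr rfl fun m _ => ?_
    have h3 : ∀ a ∈ S.filter (fun a => degF (τ a) = m),
        s a * (wF (n := n) (degF (τ a)) : ℤ) * cc (degF (τ a)) =
          s a * ((wF (n := n) m : ℤ) * cc m) := by
      intro a ha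
      rw [(Finset.mem_filter.mp ha).2]
      ring
    rw [Finset.sum_congr rfl h3, ← Finset.sum_mul]
    simp only [hcc]
    ring
  have hnn : ∀ m ∈ D, (0 : ℤ) ≤ (wF (n := n) m : ℤ) * cc m ^ 2 := fun m _ =>
    mul_nonneg (Int.natCast_nonneg _) (sq_nonneg _)
  have hcoeff : ∀ m, coeff m (∑ a ∈ S, C (s a) * ∏ x, X (τ a x) : MvPolynomial V ℤ) = cc m := by
    intro m
    simp only [hcc, prod_X_eq]
    rw [MvPolynomial.coeff_sum, Finset.sum_filter]
    refine Finset.sum_congr rfl fun a _ => ?_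
    rw [C_mul_monomial, mul_one, coeff_monomial]
  rw [hM]
  refine ⟨Finset.sum_nonneg hnn, ?_⟩
  constructor
  · intro h0
    have hzero := (Finset.sum_eq_zero_iff_of_nonneg hnn).1 h0
    apply MvPolynomial.ext
    intro m
    rw [hcoeff, coeff_zero]
    by_cases hm : m ∈ D
    · have := hzero m hm
      have hw : (wF (n := n) m : ℤ) ≠ 0 := by
        exact_mod_cast (wF_pos m).ne'
      have := (mul_eq_zero.1 this).resolve_left hw
      exact pow_eq_zero_iff (two_ne_zero) |>.1 this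
    · simp only [hcc]
      refine Finset.sum_eq_zero fun a ha => ?_
      exfalso
      obtain ⟨haS, hdeg⟩ := Finset.mem_filter.mp ha
      exact hm (hdeg ▸ Finset.mem_image_of_mem _ haS)
  · intro h0
    refine Finset.sum_eq_zero fun m _ => ?_
    have := hcoeff m
    rw [h0, coeff_zero] at this
    rw [← this]
    ring

/-- Product of three sums. -/
private theorem sum3 {A B C' : Type*} (a : Finset A) (b : Finset B) (c : Finset C')
    (f : A → ℤ) (g : B → ℤ) (h : C' → ℤ) :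
    ∑ x ∈ a, ∑ y ∈ b, ∑ z ∈ c, f x * g y * h z = (∑ x ∈ a, f x) * (∑ y ∈ b, g y) * ∑ z ∈ c, h z := by
  rw [Finset.sum_mul_sum, Finset.sum_mul]
  refine Finset.sum_congr rfl fun x _ => ?_
  rw [Finset.sum_mul]
  refine Finset.sum_congr rfl fun y _ => ?_
  rw [Finset.mul_sum]

/-- `mF` in the shape of the Gram lemma. -/
private theorem mF_eq (r₁ c₁ r₂ c₂ r₃ c₃ : Fin n → ℕ) :
    mF r₁ c₁ r₂ c₂ r₃ c₃ = ∑ π : Perm (Fin n),
      ∑ a ∈ colS c₁ ×ˢ (colS c₂ ×ˢ colS c₃), ∑ b ∈ colS c₁ ×ˢ (colS c₂ ×ˢ colS c₃),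
        (sgnZ a.1 * sgnZ a.2.1 * sgnZ a.2.2) * (sgnZ b.1 * sgnZ b.2.1 * sgnZ b.2.2) *
          (if ∀ x, ((r₁ (a.1 (π x)), r₂ (a.2.1 (π x)), r₃ (a.2.2 (π x))) : ℕ × ℕ × ℕ) =
            (r₁ (b.1 x), r₂ (b.2.1 x), r₃ (b.2.2 x)) then 1 else 0) := by
  unfold mF
  refine Finset.sum_congr rfl fun π _ => ?_
  simp only [Finset.sum_product]
  have hite : ∀ a₁ a₂ a₃ b₁ b₂ b₃ : Perm (Fin n),
      (if ∀ x, ((r₁ (a₁ (π x)), r₂ (a₂ (π x)), r₃ (a₃ (π x))) : ℕ × ℕ × ℕ) =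
        (r₁ (b₁ x), r₂ (b₂ x), r₃ (b₃ x)) then (1 : ℤ) else 0) =
      (if ∀ x, r₁ (a₁ (π x)) = r₁ (b₁ x) then 1 else 0) *
        (if ∀ x, r₂ (a₂ (π x)) = r₂ (b₂ x) then 1 else 0) *
        (if ∀ x, r₃ (a₃ (π x)) = r₃ (b₃ x) then 1 else 0) := by
    intro a₁ a₂ a₃ b₁ b₂ b₃
    simp only [Prod.mk.injEq, forall_and]
    by_cases h1 : ∀ x, r₁ (a₁ (π x)) = r₁ (b₁ x) <;>
      by_cases h2 : ∀ x, r₂ (a₂ (π x)) = r₂ (b₂ x) <;>
      by_cases h3 : ∀ x, r₃ (a₃ (π x)) = r₃ (b₃ x) <;>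
      simp [h1, h2, h3]
  simp only [hite]
  have hinner : ∀ a₁ a₂ a₃ : Perm (Fin n),
      (∑ b₁ ∈ colS c₁, ∑ b₂ ∈ colS c₂, ∑ b₃ ∈ colS c₃,
        (sgnZ a₁ * sgnZ a₂ * sgnZ a₃) * (sgnZ b₁ * sgnZ b₂ * sgnZ b₃) *
          ((if ∀ x, r₁ (a₁ (π x)) = r₁ (b₁ x) then 1 else 0) *
            (if ∀ x, r₂ (a₂ (π x)) = r₂ (b₂ x) then 1 else 0) *
            (if ∀ x, r₃ (a₃ (π x)) = r₃ (b₃ x) then 1 else 0))) =
      (∑ b₁ ∈ colS c₁, sgnZ a₁ * sgnZ b₁ * (if ∀ x, r₁ (a₁ (π x)) = r₁ (b₁ x) then 1 else 0)) *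
        (∑ b₂ ∈ colS c₂, sgnZ a₂ * sgnZ b₂ * (if ∀ x, r₂ (a₂ (π x)) = r₂ (b₂ x) then 1 else 0)) *
        ∑ b₃ ∈ colS c₃, sgnZ a₃ * sgnZ b₃ * (if ∀ x, r₃ (a₃ (π x)) = r₃ (b₃ x) then 1 else 0) := by
    intro a₁ a₂ a₃
    rw [← sum3]
    refine Finset.sum_congr rfl fun _ _ => Finset.sum_congr rfl fun _ _ =>
      Finset.sum_congr rfl fun _ _ => ?_
    ring
  simp only [hinner]
  rw [sum3]
  rfl

theorem mF_nonneg (r₁ c₁ r₂ c₂ r₃ c₃ : Fin n → ℕ) : 0 ≤ mF r₁ c₁ r₂ c₂ r₃ c₃ := by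
  rw [mF_eq]
  exact (gram (colS c₁ ×ˢ (colS c₂ ×ˢ colS c₃))
    (fun a => sgnZ a.1 * sgnZ a.2.1 * sgnZ a.2.2)
    (fun a x => ((r₁ (a.1 x), r₂ (a.2.1 x), r₃ (a.2.2 x)) : ℕ × ℕ × ℕ))).1

theorem mF_eq_zero_iff (r₁ c₁ r₂ c₂ r₃ c₃ : Fin n → ℕ) :
    mF r₁ c₁ r₂ c₂ r₃ c₃ = 0 ↔ polyF r₁ c₁ r₂ c₂ r₃ c₃ = 0 := by
  rw [mF_eq]
  have h := (gram (colS c₁ ×ˢ (colS c₂ ×ˢ colS c₃))
    (fun a => sgnZ a.1 * sgnZ a.2.1 * sgnZ a.2.2)
    (fun a x => ((r₁ (a.1 x), r₂ (a.2.1 x), r₃ (a.2.2 x)) : ℕ × ℕ × ℕ))).2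
  have hpoly : polyF r₁ c₁ r₂ c₂ r₃ c₃ =
      ∑ a ∈ colS c₁ ×ˢ (colS c₂ ×ˢ colS c₃), C (sgnZ a.1 * sgnZ a.2.1 * sgnZ a.2.2) *
        ∏ x, X ((r₁ (a.1 x), r₂ (a.2.1 x), r₃ (a.2.2 x)) : ℕ × ℕ × ℕ) := by
    unfold polyF
    simp only [Finset.sum_product]
  rw [hpoly]
  exact h

end Vale.Agent.Lib.P197W
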