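import Vale.Agent.Lib.P197W.Defs

/-!
# P197W: the polynomial of a sum of fillings is the product (blueprint Sec 5)
-/

open Equiv Finset MvPolynomial

namespace Vale.Agent.Lib.P197W

variable {N k l : ℕ}

private theorem mem_colS_aux {n : ℕ} {c : Fin n → ℕ} {q : Perm (Fin n)} :
    q ∈ colS c ↔ ∀ x, c (q x) = c x := by
  simp [colS]

/-- The column stabiliser of a sum is the product of the column stabilisers. -/
theorem exists_split (e : Fin N ≃ Fin k ⊕ Fin l) {r c : Fin k → ℕ} {r' c' : Fin l → ℕ}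
    {rp cp : Fin N → ℕ} (h : IsSum e r c r' c' rp cp) (q : Perm (Fin N)) (hq : q ∈ colS cp) :
    ∃ a ∈ colS c, ∃ b ∈ colS c',
      q = (e.trans (Equiv.sumCongr a b)).trans e.symm := by
  rw [mem_colS_aux] at hq
  -- q preserves the blocks
  have hl : ∀ x : Fin k, ∃ x' : Fin k, e (q (e.symm (Sum.inl x))) = Sum.inl x' := by
    intro x
    rcases he : e (q (e.symm (Sum.inl x))) with x' | y'
    · exact ⟨x', rfl⟩
    · exfalso
      have h1 : q (e.symm (Sum.inl x)) = e.symm (Sum.inr y') := by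
        rw [← he]; simp
      have h2 := hq (e.symm (Sum.inl x))
      rw [h1] at h2
      exact h.col_ne x y' h2.symm
  have hr : ∀ y : Fin l, ∃ y' : Fin l, e (q (e.symm (Sum.inr y))) = Sum.inr y' := by
    intro y
    rcases he : e (q (e.symm (Sum.inr y))) with x' | y'
    · exfalso
      have h1 : q (e.symm (Sum.inr y)) = e.symm (Sum.inl x') := by
        rw [← he]; simp
      have h2 := hq (e.symm (Sum.inr y))
      rw [h1] at h2
      exact h.col_ne x' y h2
    · exact ⟨y', rfl⟩
  choose a0 ha0 using hl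
  choose b0 hb0 using hr
  have ha_inj : Function.Injective a0 := by
    intro x1 x2 hx
    have h1 := ha0 x1
    have h2 := ha0 x2
    rw [hx, ← h2] at h1
    have := q.injective (e.injective h1)
    simpa using this
  have hb_inj : Function.Injective b0 := by
    intro x1 x2 hx
    have h1 := hb0 x1
    have h2 := hb0 x2
    rw [hx, ← h2] at h1
    have := q.injective (e.injective h1)
    simpa using this
  let a : Perm (Fin k) := Equiv.ofBijective a0 (Finite.injective_iff_bijective.1 ha_inj)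
  let b : Perm (Fin l) := Equiv.ofBijective b0 (Finite.injective_iff_bijective.1 hb_inj)
  have ha_apply : ∀ x, a x = a0 x := fun x => rfl
  have hb_apply : ∀ x, b x = b0 x := fun x => rfl
  refine ⟨a, ?_, b, ?_, ?_⟩
  · rw [mem_colS_aux]
    intro x
    rw [ha_apply, ← h.col_inl]
    have h1 : q (e.symm (Sum.inl x)) = e.symm (Sum.inl (a0 x)) := by
      rw [← ha0 x]; simp
    rw [← h1]
    exact hq _
  · rw [mem_colS_aux]
    intro x
    rw [hb_apply, ← h.col_inr]
    have h1 : q (e.symm (Sum.inr x)) = e.symm (Sum.inr (b0 x)) := by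
      rw [← hb0 x]; simp
    rw [← h1]
    exact hq _
  · ext z
    have hz : z = e.symm (e z) := by simp
    simp only [Equiv.trans_apply]
    rcases he : e z with x | y
    · have h1 : z = e.symm (Sum.inl x) := by rw [← he]; simp
      rw [h1]
      congr 1
      have h2 : q (e.symm (Sum.inl x)) = e.symm (Sum.inl (a0 x)) := by
        rw [← ha0 x]; simp
      rw [h2]
      simp [ha_apply]
    · have h1 : z = e.symm (Sum.inr y) := by rw [← he]; simp
      rw [h1]
      congr 1
      have h2 : q (e.symm (Sum.inr y)) = e.symm (Sum.inr (b0 y)) := by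
        rw [← hb0 y]; simp
      rw [h2]
      simp [hb_apply]

/-- The block permutation lies in the column stabiliser. -/
theorem block_mem (e : Fin N ≃ Fin k ⊕ Fin l) {r c : Fin k → ℕ} {r' c' : Fin l → ℕ}
    {rp cp : Fin N → ℕ} (h : IsSum e r c r' c' rp cp) {a : Perm (Fin k)} {b : Perm (Fin l)}
    (ha : a ∈ colS c) (hb : b ∈ colS c') :
    (e.trans (Equiv.sumCongr a b)).trans e.symm ∈ colS cp := by
  rw [mem_colS_aux] at ha hb ⊢
  intro z
  simp only [Equiv.trans_apply]
  rcases he : e z with x | y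
  · have h1 : z = e.symm (Sum.inl x) := by rw [← he]; simp
    rw [h1]
    simp only [Equiv.sumCongr_apply, Sum.map_inl]
    exact (h.col_inl _ _).2 (ha x)
  · have h1 : z = e.symm (Sum.inr y) := by rw [← he]; simp
    rw [h1]
    simp only [Equiv.sumCongr_apply, Sum.map_inr]
    exact (h.col_inr _ _).2 (hb y)

/-- The sign of a block permutation. -/
theorem sgnZ_block (e : Fin N ≃ Fin k ⊕ Fin l) (a : Perm (Fin k)) (b : Perm (Fin l)) :
    sgnZ ((e.trans (Equiv.sumCongr a b)).trans e.symm) = sgnZ a * sgnZ b := by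
  have h1 : Perm.sign ((e.trans (Equiv.sumCongr a b)).trans e.symm) =
      Perm.sign (Equiv.sumCongr a b) := by
    exact Perm.sign_trans_trans_symm (Equiv.sumCongr a b) e
  unfold sgnZ
  rw [h1, Perm.sign_sumCongr]
  simp

/-- A sum over the column stabiliser of a sum of fillings. -/
theorem sum_colS_split {A : Type*} [AddCommMonoid A] (e : Fin N ≃ Fin k ⊕ Fin l) {r c : Fin k → ℕ}
    {r' c' : Fin l → ℕ} {rp cp : Fin N → ℕ} (h : IsSum e r c r' c' rp cp) (f : Perm (Fin N) → A) :
    ∑ q ∈ colS cp, f q =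
      ∑ a ∈ colS c, ∑ b ∈ colS c', f ((e.trans (Equiv.sumCongr a b)).trans e.symm) := by
  rw [← Finset.sum_product']
  symm
  refine Finset.sum_bij (fun p _ => (e.trans (Equiv.sumCongr p.1 p.2)).trans e.symm) ?_ ?_ ?_ ?_
  · intro p hp
    rw [Finset.mem_product] at hp
    exact block_mem e h hp.1 hp.2
  · intro p _ p' _ hpp
    have key : ∀ u, (Equiv.sumCongr p.1 p.2) u = (Equiv.sumCongr p'.1 p'.2) u := by
      intro u
      have := congrArg (fun g : Perm (Fin N) => e (g (e.symm u))) hpp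
      simpa using this
    refine Prod.ext (Equiv.ext fun x => ?_) (Equiv.ext fun x => ?_)
    · have := key (Sum.inl x)
      simpa using this
    · have := key (Sum.inr x)
      simpa using this
  · intro q hq
    obtain ⟨a, ha, b, hb, hab⟩ := exists_split e h q hq
    exact ⟨(a, b), Finset.mem_product.2 ⟨ha, hb⟩, hab.symm⟩
  · intro p _
    rfl

/-- **Multiplicativity.** -/
theorem polyF_sum (e : Fin N ≃ Fin k ⊕ Fin l)
    {r₁ c₁ r₂ c₂ r₃ c₃ : Fin k → ℕ} {r₁' c₁' r₂' c₂' r₃' c₃' : Fin l → ℕ}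
    {r₁p c₁p r₂p c₂p r₃p c₃p : Fin N → ℕ}
    (h₁ : IsSum e r₁ c₁ r₁' c₁' r₁p c₁p) (h₂ : IsSum e r₂ c₂ r₂' c₂' r₂p c₂p)
    (h₃ : IsSum e r₃ c₃ r₃' c₃' r₃p c₃p) :
    polyF r₁p c₁p r₂p c₂p r₃p c₃p =
      polyF r₁ c₁ r₂ c₂ r₃ c₃ * polyF r₁' c₁' r₂' c₂' r₃' c₃' := by
  unfold polyF
  rw [Finset.sum_mul_sum, sum_colS_split e h₁]
  refine sum_congr rfl fun a₁ _ => sum_congr rfl fun b₁ _ => ?_
  rw [Finset.sum_mul_sum, sum_colS_split e h₂]
  refine sum_congr rfl fun a₂ _ => sum_congr rfl fun b₂ _ => ?_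
  rw [Finset.sum_mul_sum, sum_colS_split e h₃]
  refine sum_congr rfl fun a₃ _ => sum_congr rfl fun b₃ _ => ?_
  rw [sgnZ_block, sgnZ_block, sgnZ_block]
  have key : (∏ z, (X (r₁p (((e.trans (Equiv.sumCongr a₁ b₁)).trans e.symm) z),
        r₂p (((e.trans (Equiv.sumCongr a₂ b₂)).trans e.symm) z),
        r₃p (((e.trans (Equiv.sumCongr a₃ b₃)).trans e.symm) z)) : MvPolynomial (ℕ × ℕ × ℕ) ℤ)) =
      (∏ x, X (r₁ (a₁ x), r₂ (a₂ x), r₃ (a₃ x))) *
        ∏ y, X (r₁' (b₁ y), r₂' (b₂ y), r₃' (b₃ y)) := by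
    rw [← Equiv.prod_comp e.symm, Fintype.prod_sum_type]
    simp [h₁.row_inl, h₁.row_inr, h₂.row_inl, h₂.row_inr, h₃.row_inl, h₃.row_inr]
  rw [key]
  simp only [map_mul]
  ring

/-- The base polynomial: two columns and a row. -/
theorem polyF_base (l : ℕ) :
    polyF (n := l) (fun y => (y : ℕ)) (fun _ => 0) (fun y => (y : ℕ)) (fun _ => 0) (fun _ => 0)
      (fun y => (y : ℕ)) ≠ 0 := by
  intro h0
  have h1 := congrArg (MvPolynomial.eval (fun t : ℕ × ℕ × ℕ => if t.1 = t.2.1 then (1:ℤ) else 0)) h0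
  have hc : colS (n := l) (fun _ => 0) = univ := by
    ext q; simp [colS]
  have hv : colS (n := l) (fun y => (y : ℕ)) = {1} := by
    ext q
    simp only [colS, mem_filter, mem_univ, true_and, mem_singleton]
    constructor
    · intro h
      ext x
      exact h x
    · rintro rfl x
      rfl
  have hprod : ∀ q₁ q₂ : Perm (Fin l),
      (∏ x : Fin l, (if ((q₁ x : ℕ)) = (q₂ x : ℕ) then (1:ℤ) else 0)) = if q₁ = q₂ then 1 else 0 := by
    intro q₁ q₂
    split_ifs with h
    · subst h; simp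
    · have : ∃ x, q₁ x ≠ q₂ x := by
        by_contra hne
        push Not at hne
        exact h (Equiv.ext hne)
      obtain ⟨x, hx⟩ := this
      refine Finset.prod_eq_zero (mem_univ x) ?_
      rw [if_neg]
      intro hh
      exact hx (Fin.ext hh)
  have h2 : (∑ q₁ : Perm (Fin l), ∑ q₂ : Perm (Fin l),
      (sgnZ q₁ * sgnZ q₂) * (if q₁ = q₂ then (1:ℤ) else 0)) = 0 := by
    have h3 := h1
    unfold polyF at h3
    rw [hc, hv] at h3
    simp only [sum_singleton, map_sum, map_mul, eval_C, map_prod, eval_X, map_zero] at h3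
    simpa [hprod] using h3
  have h4 : (∑ q₁ : Perm (Fin l), ∑ q₂ : Perm (Fin l),
      (sgnZ q₁ * sgnZ q₂) * (if q₁ = q₂ then (1:ℤ) else 0)) = (l.factorial : ℤ) := by
    have : ∀ q₁ : Perm (Fin l), (∑ q₂ : Perm (Fin l),
        (sgnZ q₁ * sgnZ q₂) * (if q₁ = q₂ then (1:ℤ) else 0)) = 1 := by
      intro q₁
      rw [Finset.sum_eq_single q₁]
      · simp only [if_true, mul_one]
        have := Int.units_mul_self (Perm.sign q₁)
        simpa [sgnZ] using congrArg (fun u : ℤˣ => (u : ℤ)) this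
      · intro b _ hb
        simp [Ne.symm hb]
      · simp
    simp only [this]
    simp [Fintype.card_perm]
  rw [h4] at h2
  exact (Nat.factorial_ne_zero l) (by exact_mod_cast h2)

end Vale.Agent.Lib.P197W
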