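import Vale.Agent.Lib.P197W.Pos
import Vale.Agent.Lib.P197W.SumF

/-!
# P197W: the fillings of the step and the step theorem (blueprint Sec 6)
-/

open Equiv Finset

namespace Vale.Agent.Lib.P197W

open Vale.Agent.Lib.P197

variable {N k l : ℕ}

/-- Adding a first column to the staircase. -/
theorem exists_staircase_sum (m : ℕ) (hk : k = m * (m + 1) / 2) (hl : l = m + 1)
    (hN : N = (m + 1) * (m + 1 + 1) / 2) (e : Fin N ≃ Fin k ⊕ Fin l) (T : Filling k (staircase m)) :
    ∃ Tp : Filling N (staircase (m + 1)),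
      IsSum e (rowOf T) (colOf T) (fun y => (y : ℕ)) (fun _ => 0) (rowOf Tp) (colOf Tp) := by
  subst hl
  have hin : ∀ x, (rowOf T x, colOf T x + 1) ∈ (staircase (m + 1)).cells := by
    intro x
    have h1 : (T x).1 ∈ staircase m := (T x).2
    have h2 := (mem_st m _).1 h1
    apply (mem_st (m + 1) _).2
    simp only [rowOf, colOf]
    omega
  have hin' : ∀ y : Fin (m + 1), ((y : ℕ), 0) ∈ (staircase (m + 1)).cells := by
    intro y
    apply (mem_st (m + 1) _).2
    simp only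
    omega
  let F : Fin N → {c // c ∈ (staircase (m + 1)).cells} := fun z =>
    Sum.elim (fun x : Fin k => (⟨(rowOf T x, colOf T x + 1), hin x⟩ : {c // c ∈ (staircase (m + 1)).cells}))
      (fun y : Fin (m + 1) => (⟨((y : ℕ), 0), hin' y⟩ : {c // c ∈ (staircase (m + 1)).cells})) (e z)
  have hFl : ∀ x, F (e.symm (Sum.inl x)) = ⟨(rowOf T x, colOf T x + 1), hin x⟩ := by
    intro x; simp [F]
  have hFr : ∀ y, F (e.symm (Sum.inr y)) = ⟨((y : ℕ), 0), hin' y⟩ := by
    intro y; simp [F]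
  have hinj : Function.Injective F := by
    intro a b hab
    have hab2 : F (e.symm (e a)) = F (e.symm (e b)) := by
      rw [e.symm_apply_apply, e.symm_apply_apply]; exact hab
    apply e.injective
    revert hab2
    generalize e a = ua
    generalize e b = ub
    intro hab
    rcases ua with x | y <;> rcases ub with x' | y'
    · rw [hFl, hFl] at hab
      have h3 : (rowOf T x, colOf T x + 1) = (rowOf T x', colOf T x' + 1) :=
        congrArg Subtype.val hab
      have h4 : rowOf T x = rowOf T x' := (Prod.mk.inj h3).1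
      have h5 : colOf T x + 1 = colOf T x' + 1 := (Prod.mk.inj h3).2
      have h6 : T x = T x' := Subtype.ext (Prod.ext h4 (Nat.succ.inj h5))
      rw [T.injective h6]
    · rw [hFl, hFr] at hab
      have h3 : (rowOf T x, colOf T x + 1) = ((y' : ℕ), 0) := congrArg Subtype.val hab
      have h5 : colOf T x + 1 = 0 := (Prod.mk.inj h3).2
      omega
    · rw [hFr, hFl] at hab
      have h3 : ((y : ℕ), 0) = (rowOf T x', colOf T x' + 1) := congrArg Subtype.val hab
      have h5 : 0 = colOf T x' + 1 := (Prod.mk.inj h3).2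
      omega
    · rw [hFr, hFr] at hab
      have h3 : ((y : ℕ), 0) = ((y' : ℕ), 0) := congrArg Subtype.val hab
      have h4 : (y : ℕ) = y' := (Prod.mk.inj h3).1
      rw [Fin.ext h4]
  have hbij : Function.Bijective F := (Fintype.bijective_iff_injective_and_card F).2 ⟨hinj, by
    simp only [Fintype.card_fin, Fintype.card_coe]
    rw [hN]
    exact (staircase_card (m + 1)).symm⟩
  let Tp : Filling N (staircase (m + 1)) := Equiv.ofBijective F hbij
  have hTl : ∀ x, Tp (e.symm (Sum.inl x)) = ⟨(rowOf T x, colOf T x + 1), hin x⟩ := hFl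
  have hTr : ∀ y, Tp (e.symm (Sum.inr y)) = ⟨((y : ℕ), 0), hin' y⟩ := hFr
  refine ⟨Tp, ?_, ?_, ?_, ?_, ?_⟩
  · intro x
    simp only [rowOf]
    rw [hTl]
    rfl
  · intro y
    simp only [rowOf]
    rw [hTr]
  · intro x x'
    simp only [colOf]
    rw [hTl, hTl]
    show colOf T x + 1 = colOf T x' + 1 ↔ colOf T x = colOf T x'
    omega
  · intro y y'
    simp only [colOf]
    rw [hTr, hTr]
    simp
  · intro x y
    simp only [colOf]
    rw [hTl, hTr]
    show colOf T x + 1 ≠ 0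
    omega

theorem mem_trimRow (ν : YoungDiagram) (t : ℕ) (h : ν.rowLen 1 + t ≤ ν.rowLen 0) (c : ℕ × ℕ) :
    c ∈ trimRow ν t h ↔ c ∈ ν ∧ (c.1 ≠ 0 ∨ c.2 + t < ν.rowLen 0) := by
  show c ∈ (trimRow ν t h).cells ↔ _
  simp [trimRow, YoungDiagram.mem_cells]

theorem trimRow_rowLen_zero (ν : YoungDiagram) (t : ℕ) (h : ν.rowLen 1 + t ≤ ν.rowLen 0) :
    (trimRow ν t h).rowLen 0 = ν.rowLen 0 - t := by
  apply eq_of_forall_lt_iff
  intro j
  rw [← YoungDiagram.mem_iff_lt_rowLen, mem_trimRow, YoungDiagram.mem_iff_lt_rowLen]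
  simp only [ne_eq, not_true_eq_false, false_or]
  omega

theorem trimRow_rowLen_succ (ν : YoungDiagram) (t : ℕ) (h : ν.rowLen 1 + t ≤ ν.rowLen 0) (i : ℕ) :
    (trimRow ν t h).rowLen (i + 1) = ν.rowLen (i + 1) := by
  apply eq_of_forall_lt_iff
  intro j
  rw [← YoungDiagram.mem_iff_lt_rowLen, mem_trimRow, YoungDiagram.mem_iff_lt_rowLen]
  simp

theorem trimRow_colLen (ν : YoungDiagram) (t : ℕ) (h : ν.rowLen 1 + t ≤ ν.rowLen 0) (j : ℕ)
    (hj : j + t < ν.rowLen 0) : (trimRow ν t h).colLen j = ν.colLen j := by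
  apply eq_of_forall_lt_iff
  intro i
  rw [← YoungDiagram.mem_iff_lt_colLen, mem_trimRow, YoungDiagram.mem_iff_lt_colLen]
  simp only [ne_eq]
  constructor
  · exact fun a => a.1
  · intro a
    exact ⟨a, Or.inr hj⟩

theorem trimRow_card (ν : YoungDiagram) (t : ℕ) (h : ν.rowLen 1 + t ≤ ν.rowLen 0) :
    (trimRow ν t h).card + t = ν.card := by
  classical
  have hsub : (trimRow ν t h).cells ⊆ ν.cells := by
    intro c hc
    exact ((mem_trimRow ν t h c).1 hc).1
  have hsdiff : (ν.cells \ (trimRow ν t h).cells) =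
      (Finset.Ico (ν.rowLen 0 - t) (ν.rowLen 0)).image (fun j => (0, j)) := by
    ext c
    simp only [Finset.mem_sdiff, Finset.mem_image, Finset.mem_Ico]
    constructor
    · rintro ⟨h1, h2⟩
      have h1' : c ∈ ν := h1
      have h2' : ¬ (c ∈ ν ∧ (c.1 ≠ 0 ∨ c.2 + t < ν.rowLen 0)) := fun hh =>
        h2 ((mem_trimRow ν t h c).2 hh)
      push Not at h2'
      obtain ⟨h3, h4⟩ := h2' h1'
      refine ⟨c.2, ?_, ?_⟩
      · have : c.2 < ν.rowLen c.1 := YoungDiagram.mem_iff_lt_rowLen.1 (by simpa using h1')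
        rw [h3] at this
        omega
      · exact Prod.ext h3.symm rfl
    · rintro ⟨j, ⟨h1, h2⟩, rfl⟩
      refine ⟨?_, ?_⟩
      · exact YoungDiagram.mem_iff_lt_rowLen.2 h2
      · intro h3
        have h3' := ((mem_trimRow ν t h _).1 h3).2
        simp only [ne_eq, not_true_eq_false, false_or] at h3'
        omega
  have hcard : (ν.cells \ (trimRow ν t h).cells).card = t := by
    rw [hsdiff, Finset.card_image_of_injective _ (fun a b hab => by simpa using hab), Nat.card_Ico]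
    omega
  have := Finset.card_sdiff_add_card_eq_card hsub
  show (trimRow ν t h).cells.card + t = ν.cells.card
  omega

/-- Adding cells to the first row. -/
theorem exists_row_sum (ν : YoungDiagram) (h : ν.rowLen 1 + l ≤ ν.rowLen 0) (hk : k = (trimRow ν l h).card)
    (hN : N = ν.card) (e : Fin N ≃ Fin k ⊕ Fin l) (T : Filling k (trimRow ν l h)) :
    ∃ Tp : Filling N ν,
      IsSum e (rowOf T) (colOf T) (fun _ => 0) (fun y => (y : ℕ)) (rowOf Tp) (colOf Tp) := by
  have hmem : ∀ (c : ℕ × ℕ), c ∈ (trimRow ν l h).cells ↔ c ∈ ν.cells ∧ (c.1 ≠ 0 ∨ c.2 + l < ν.rowLen 0) :=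
    fun c => mem_trimRow ν l h c
  have hin : ∀ x, (T x).1 ∈ ν.cells := fun x => ((hmem _).1 (T x).2).1
  have hin' : ∀ y : Fin l, (0, ν.rowLen 0 - l + (y : ℕ)) ∈ ν.cells := by
    intro y
    have hy := y.2
    have : (0, ν.rowLen 0 - l + (y : ℕ)) ∈ ν := by
      apply YoungDiagram.mem_iff_lt_rowLen.2
      show ν.rowLen 0 - l + (y : ℕ) < ν.rowLen 0
      omega
    exact this
  have hcol : ∀ x y, colOf T x ≠ ν.rowLen 0 - l + (y : ℕ) := by
    intro x y
    have h1 := (hmem _).1 (T x).2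
    have hx : (T x).1 ∈ ν := h1.1
    have hlt : (T x).1.2 < ν.rowLen (T x).1.1 := YoungDiagram.mem_iff_lt_rowLen.1 hx
    intro heq
    simp only [colOf] at heq
    by_cases h0 : (T x).1.1 = 0
    · rcases h1.2 with h2 | h2
      · exact h2 h0
      · omega
    · have hanti : ν.rowLen (T x).1.1 ≤ ν.rowLen 1 := ν.rowLen_anti 1 _ (by omega)
      omega
  let F : Fin N → {c // c ∈ ν.cells} := fun z =>
    Sum.elim (fun x : Fin k => (⟨(T x).1, hin x⟩ : {c // c ∈ ν.cells}))
      (fun y : Fin l => (⟨(0, ν.rowLen 0 - l + (y : ℕ)), hin' y⟩ : {c // c ∈ ν.cells})) (e z)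
  have hFl : ∀ x, F (e.symm (Sum.inl x)) = ⟨(T x).1, hin x⟩ := by
    intro x; simp [F]
  have hFr : ∀ y, F (e.symm (Sum.inr y)) = ⟨(0, ν.rowLen 0 - l + (y : ℕ)), hin' y⟩ := by
    intro y; simp [F]
  have hinj : Function.Injective F := by
    intro a b hab
    have hab2 : F (e.symm (e a)) = F (e.symm (e b)) := by
      rw [e.symm_apply_apply, e.symm_apply_apply]; exact hab
    apply e.injective
    revert hab2
    generalize e a = ua
    generalize e b = ub
    intro hab
    rcases ua with x | y <;> rcases ub with x' | y'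
    · rw [hFl, hFl] at hab
      have h3 : (T x).1 = (T x').1 := Subtype.mk.inj hab
      have h6 : T x = T x' := Subtype.ext h3
      rw [T.injective h6]
    · rw [hFl, hFr] at hab
      have h3 : (T x).1 = (0, ν.rowLen 0 - l + (y' : ℕ)) := congrArg Subtype.val hab
      have h5 : (T x).1.2 = ν.rowLen 0 - l + (y' : ℕ) := by rw [h3]
      exact absurd h5 (hcol x y')
    · rw [hFr, hFl] at hab
      have h3 : (0, ν.rowLen 0 - l + (y : ℕ)) = (T x').1 := congrArg Subtype.val hab
      have h5 : ν.rowLen 0 - l + (y : ℕ) = (T x').1.2 := by rw [← h3]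
      exact absurd h5.symm (hcol x' y)
    · rw [hFr, hFr] at hab
      have h3 : (0, ν.rowLen 0 - l + (y : ℕ)) = (0, ν.rowLen 0 - l + (y' : ℕ)) :=
        congrArg Subtype.val hab
      have h4 : ν.rowLen 0 - l + (y : ℕ) = ν.rowLen 0 - l + (y' : ℕ) := (Prod.mk.inj h3).2
      have h5 : (y : ℕ) = y' := by omega
      rw [Fin.ext h5]
  have hcard : Fintype.card (Fin N) = Fintype.card {c // c ∈ ν.cells} := by
    simp only [Fintype.card_fin, Fintype.card_coe]
    rw [hN]
  let Tp : Filling N ν :=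
    Equiv.ofBijective F ((Fintype.bijective_iff_injective_and_card F).2 ⟨hinj, hcard⟩)
  have hTl : ∀ x, Tp (e.symm (Sum.inl x)) = ⟨(T x).1, hin x⟩ := hFl
  have hTr : ∀ y, Tp (e.symm (Sum.inr y)) = ⟨(0, ν.rowLen 0 - l + (y : ℕ)), hin' y⟩ := hFr
  refine ⟨Tp, ?_, ?_, ?_, ?_, ?_⟩
  · intro x
    simp only [rowOf]
    rw [hTl]
  · intro y
    simp only [rowOf]
    rw [hTr]
  · intro x x'
    simp only [colOf]
    rw [hTl, hTl]
  · intro y y'
    simp only [colOf]
    rw [hTr, hTr]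
    show ν.rowLen 0 - l + (y : ℕ) = ν.rowLen 0 - l + (y' : ℕ) ↔ (y : ℕ) = y'
    omega
  · intro x y
    have := hcol x y
    simp only [colOf] at this ⊢
    rw [hTl, hTr]
    exact this

/-- **The step.** -/
theorem step (m : ℕ) (ν : YoungDiagram) (h : ν.rowLen 1 + (m + 1) ≤ ν.rowLen 0)
    (hν : ν.card = (m + 1) * (m + 1 + 1) / 2) (hpos : PosS m (trimRow ν (m + 1) h)) :
    PosS (m + 1) ν := by
  have hk2 : 2 * (m * (m + 1) / 2) = m * (m + 1) := by
    have := Nat.even_mul_succ_self m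
    exact Nat.two_mul_div_two_of_even this
  have hN2 : 2 * ((m + 1) * (m + 1 + 1) / 2) = (m + 1) * (m + 1 + 1) := by
    have := Nat.even_mul_succ_self (m + 1)
    exact Nat.two_mul_div_two_of_even this
  have hN : (m + 1) * (m + 1 + 1) / 2 = m * (m + 1) / 2 + (m + 1) := by
    have : (m + 1) * (m + 1 + 1) = m * (m + 1) + 2 * (m + 1) := by ring
    omega
  let e : Fin ((m + 1) * (m + 1 + 1) / 2) ≃ Fin (m * (m + 1) / 2) ⊕ Fin (m + 1) :=
    (finCongr hN).trans finSumFinEquiv.symm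
  have hst : Fintype.card (Fin (m * (m + 1) / 2)) = Fintype.card {c // c ∈ (staircase m).cells} := by
    simp only [Fintype.card_fin, Fintype.card_coe]
    exact (staircase_card m).symm
  have htr : (trimRow ν (m + 1) h).card = m * (m + 1) / 2 := by
    have := trimRow_card ν (m + 1) h
    omega
  have hrc : Fintype.card (Fin (m * (m + 1) / 2)) =
      Fintype.card {c // c ∈ (trimRow ν (m + 1) h).cells} := by
    simp only [Fintype.card_fin, Fintype.card_coe]
    exact htr.symm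
  let A₁ : Filling (m * (m + 1) / 2) (staircase m) := Fintype.equivOfCardEq hst
  let A₃ : Filling (m * (m + 1) / 2) (trimRow ν (m + 1) h) := Fintype.equivOfCardEq hrc
  intro T₁ T₂ T₃
  obtain ⟨σ₁, σ₂, σ₃, hne⟩ := poly_of_pos A₁ A₁ A₃ (hpos A₁ A₁ A₃)
  obtain ⟨Tp₁, h₁⟩ := exists_staircase_sum m rfl rfl rfl e (σ₁.trans A₁)
  obtain ⟨Tp₂, h₂⟩ := exists_staircase_sum m rfl rfl rfl e (σ₂.trans A₁)
  obtain ⟨Tp₃, h₃⟩ := exists_row_sum ν h htr.symm hν.symm e (σ₃.trans A₃)
  have hP : polyP Tp₁ Tp₂ Tp₃ ≠ 0 := by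
    unfold polyP
    rw [polyF_sum e h₁ h₂ h₃]
    exact mul_ne_zero hne (polyF_base (m + 1))
  have hR := pos_of_poly Tp₁ Tp₂ Tp₃ hP
  rw [rr_indep T₁ Tp₁, rr_indep T₂ Tp₂, rr_indep T₃ Tp₃]
  exact hR

end Vale.Agent.Lib.P197W
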