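import Vale.Agent.Lib.P197W.Gram
import Vale.Agent.Lib.P197W.Avg

/-!
# P197W: positivity of the Kronecker coefficient and the polynomial (blueprint Sec 4)
-/

open Equiv Finset

namespace Vale.Agent.Lib.P197W

open Vale.Agent.Lib.P197

variable {n : ℕ} {la mu nu : YoungDiagram}

/-- The averaged identity. -/
theorem sum_mF (T₁ : Filling n la) (T₂ : Filling n mu) (T₃ : Filling n nu) :
    ((∑ σ₁ : Perm (Fin n), ∑ σ₂ : Perm (Fin n), ∑ σ₃ : Perm (Fin n),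
        mF (rowOf (σ₁.trans T₁)) (colOf (σ₁.trans T₁)) (rowOf (σ₂.trans T₂)) (colOf (σ₂.trans T₂))
          (rowOf (σ₃.trans T₃)) (colOf (σ₃.trans T₃)) : ℤ) : ℝ) =
      (((colStab T₁).card : ℝ) * ((n.factorial : ℕ) : ℝ)) *
        (((colStab T₂).card : ℝ) * ((n.factorial : ℕ) : ℝ)) *
        (((colStab T₃).card : ℝ) * ((n.factorial : ℕ) : ℝ)) *
        ∑ π : Perm (Fin n), rr T₁ π * rr T₂ π * rr T₃ π := by
  have key : (∑ σ₁ : Perm (Fin n), ∑ σ₂ : Perm (Fin n), ∑ σ₃ : Perm (Fin n),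
        mF (rowOf (σ₁.trans T₁)) (colOf (σ₁.trans T₁)) (rowOf (σ₂.trans T₂)) (colOf (σ₂.trans T₂))
          (rowOf (σ₃.trans T₃)) (colOf (σ₃.trans T₃)) : ℤ) =
      ∑ π : Perm (Fin n),
        (∑ σ₁ : Perm (Fin n), gF (rowOf (σ₁.trans T₁)) (colOf (σ₁.trans T₁)) π) *
        (∑ σ₂ : Perm (Fin n), gF (rowOf (σ₂.trans T₂)) (colOf (σ₂.trans T₂)) π) *
        (∑ σ₃ : Perm (Fin n), gF (rowOf (σ₃.trans T₃)) (colOf (σ₃.trans T₃)) π) := by
    unfold mF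
    calc _ = ∑ σ₁ : Perm (Fin n), ∑ σ₂ : Perm (Fin n), ∑ π : Perm (Fin n), ∑ σ₃ : Perm (Fin n),
          gF (rowOf (σ₁.trans T₁)) (colOf (σ₁.trans T₁)) π *
            gF (rowOf (σ₂.trans T₂)) (colOf (σ₂.trans T₂)) π *
            gF (rowOf (σ₃.trans T₃)) (colOf (σ₃.trans T₃)) π := by
            refine Finset.sum_congr rfl fun σ₁ _ => Finset.sum_congr rfl fun σ₂ _ => ?_
            exact Finset.sum_comm
      _ = ∑ σ₁ : Perm (Fin n), ∑ π : Perm (Fin n), ∑ σ₂ : Perm (Fin n), ∑ σ₃ : Perm (Fin n),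
          gF (rowOf (σ₁.trans T₁)) (colOf (σ₁.trans T₁)) π *
            gF (rowOf (σ₂.trans T₂)) (colOf (σ₂.trans T₂)) π *
            gF (rowOf (σ₃.trans T₃)) (colOf (σ₃.trans T₃)) π := by
            refine Finset.sum_congr rfl fun σ₁ _ => ?_
            exact Finset.sum_comm
      _ = ∑ π : Perm (Fin n), ∑ σ₁ : Perm (Fin n), ∑ σ₂ : Perm (Fin n), ∑ σ₃ : Perm (Fin n),
          gF (rowOf (σ₁.trans T₁)) (colOf (σ₁.trans T₁)) π *
            gF (rowOf (σ₂.trans T₂)) (colOf (σ₂.trans T₂)) π *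
            gF (rowOf (σ₃.trans T₃)) (colOf (σ₃.trans T₃)) π := Finset.sum_comm
      _ = _ := by
            refine Finset.sum_congr rfl fun π _ => ?_
            rw [Finset.sum_mul_sum, Finset.sum_mul]
            refine Finset.sum_congr rfl fun σ₁ _ => ?_
            rw [Finset.sum_mul_sum]
  rw [key, Int.cast_sum, Finset.mul_sum]
  refine Finset.sum_congr rfl fun π _ => ?_
  rw [Int.cast_mul, Int.cast_mul, gF_avg T₁ π, gF_avg T₂ π, gF_avg T₃ π]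
  ring

/-- The stabiliser of the columns is non empty. -/
private theorem colStab_card_pos (T : Filling n la) : 0 < (colStab T).card := by
  have hmem : (1 : Perm (Fin n)) ∈ colStab T := by
    simp [colStab]
  exact Finset.card_pos.2 ⟨1, hmem⟩

/-- The factor in the averaged identity is non zero. -/
private theorem factor_ne (T₁ : Filling n la) (T₂ : Filling n mu) (T₃ : Filling n nu) :
    (((colStab T₁).card : ℝ) * ((n.factorial : ℕ) : ℝ)) *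
        (((colStab T₂).card : ℝ) * ((n.factorial : ℕ) : ℝ)) *
        (((colStab T₃).card : ℝ) * ((n.factorial : ℕ) : ℝ)) ≠ 0 := by
  have h₁ : ((colStab T₁).card : ℝ) ≠ 0 := by exact_mod_cast (colStab_card_pos T₁).ne'
  have h₂ : ((colStab T₂).card : ℝ) ≠ 0 := by exact_mod_cast (colStab_card_pos T₂).ne'
  have h₃ : ((colStab T₃).card : ℝ) ≠ 0 := by exact_mod_cast (colStab_card_pos T₃).ne'
  have hf : ((n.factorial : ℕ) : ℝ) ≠ 0 := by exact_mod_cast n.factorial_ne_zero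
  positivity

/-- A non zero polynomial gives a non zero character sum. -/
theorem pos_of_poly (T₁ : Filling n la) (T₂ : Filling n mu) (T₃ : Filling n nu)
    (h : polyP T₁ T₂ T₃ ≠ 0) : ∑ π : Perm (Fin n), rr T₁ π * rr T₂ π * rr T₃ π ≠ 0 := by
  intro h0
  have hs := sum_mF T₁ T₂ T₃
  rw [h0, mul_zero] at hs
  have hs' : (∑ σ₁ : Perm (Fin n), ∑ σ₂ : Perm (Fin n), ∑ σ₃ : Perm (Fin n),
        mF (rowOf (σ₁.trans T₁)) (colOf (σ₁.trans T₁)) (rowOf (σ₂.trans T₂)) (colOf (σ₂.trans T₂))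
          (rowOf (σ₃.trans T₃)) (colOf (σ₃.trans T₃)) : ℤ) = 0 := by
    exact_mod_cast hs
  have hnn₃ : ∀ (σ₁ σ₂ : Perm (Fin n)), 0 ≤ ∑ σ₃ : Perm (Fin n),
      mF (rowOf (σ₁.trans T₁)) (colOf (σ₁.trans T₁)) (rowOf (σ₂.trans T₂)) (colOf (σ₂.trans T₂))
        (rowOf (σ₃.trans T₃)) (colOf (σ₃.trans T₃)) :=
    fun σ₁ σ₂ => Finset.sum_nonneg fun σ₃ _ => mF_nonneg _ _ _ _ _ _
  have hnn₂ : ∀ (σ₁ : Perm (Fin n)), 0 ≤ ∑ σ₂ : Perm (Fin n), ∑ σ₃ : Perm (Fin n),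
      mF (rowOf (σ₁.trans T₁)) (colOf (σ₁.trans T₁)) (rowOf (σ₂.trans T₂)) (colOf (σ₂.trans T₂))
        (rowOf (σ₃.trans T₃)) (colOf (σ₃.trans T₃)) :=
    fun σ₁ => Finset.sum_nonneg fun σ₂ _ => hnn₃ σ₁ σ₂
  have h1 := (Finset.sum_eq_zero_iff_of_nonneg fun σ₁ _ => hnn₂ σ₁).1 hs' 1 (Finset.mem_univ _)
  have h2 := (Finset.sum_eq_zero_iff_of_nonneg fun σ₂ _ => hnn₃ 1 σ₂).1 h1 1 (Finset.mem_univ _)
  have h3 := (Finset.sum_eq_zero_iff_of_nonneg fun σ₃ _ => mF_nonneg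
      (rowOf ((1 : Perm (Fin n)).trans T₁)) (colOf ((1 : Perm (Fin n)).trans T₁))
      (rowOf ((1 : Perm (Fin n)).trans T₂)) (colOf ((1 : Perm (Fin n)).trans T₂))
      (rowOf (σ₃.trans T₃)) (colOf (σ₃.trans T₃))).1 h2 1 (Finset.mem_univ _)
  have h4 := (mF_eq_zero_iff _ _ _ _ _ _).1 h3
  apply h
  exact h4

/-- A non zero character sum gives a non zero polynomial for some relabelling. -/
theorem poly_of_pos (T₁ : Filling n la) (T₂ : Filling n mu) (T₃ : Filling n nu)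
    (h : ∑ π : Perm (Fin n), rr T₁ π * rr T₂ π * rr T₃ π ≠ 0) :
    ∃ σ₁ σ₂ σ₃ : Perm (Fin n), polyP (σ₁.trans T₁) (σ₂.trans T₂) (σ₃.trans T₃) ≠ 0 := by
  by_contra hno'
  have hno : ∀ σ₁ σ₂ σ₃ : Perm (Fin n), polyP (σ₁.trans T₁) (σ₂.trans T₂) (σ₃.trans T₃) = 0 :=
    fun a b c => by_contra fun hh => hno' ⟨a, b, c, hh⟩
  have hs := sum_mF T₁ T₂ T₃
  have hz : (∑ σ₁ : Perm (Fin n), ∑ σ₂ : Perm (Fin n), ∑ σ₃ : Perm (Fin n),
        mF (rowOf (σ₁.trans T₁)) (colOf (σ₁.trans T₁)) (rowOf (σ₂.trans T₂)) (colOf (σ₂.trans T₂))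
          (rowOf (σ₃.trans T₃)) (colOf (σ₃.trans T₃)) : ℤ) = 0 := by
    refine Finset.sum_eq_zero fun σ₁ _ => Finset.sum_eq_zero fun σ₂ _ =>
      Finset.sum_eq_zero fun σ₃ _ => ?_
    exact (mF_eq_zero_iff _ _ _ _ _ _).2 (hno σ₁ σ₂ σ₃)
  rw [hz, Int.cast_zero] at hs
  have := (mul_eq_zero.1 hs.symm).resolve_left (factor_ne T₁ T₂ T₃)
  exact h this

end Vale.Agent.Lib.P197W
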